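import Mathlib

namespace Vale.Agent.Lib.P112

open MeasureTheory Filter Topology SchwartzMap
open scoped ENNReal NNReal

/-- The Euclidean plane. -/
abbrev E2 : Type := EuclideanSpace ℝ (Fin 2)

/-- The truncated directional Hilbert transform `H^ε_{v,a} f (x)`. -/
noncomputable def truncH (v : E2 → E2) (a ε : ℝ) (f : 𝓢(E2, ℂ)) (x : E2) : ℂ :=
  ∫ t in {t : ℝ | ε < |t| ∧ |t| < a}, f (x - t • v x) / (t : ℂ)

/-- The principal value `H_{v,a} f (x)`, the limit of the truncations as `ε ↓ 0`. -/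
noncomputable def dirH (v : E2 → E2) (a : ℝ) (f : 𝓢(E2, ℂ)) (x : E2) : ℂ :=
  limUnder (𝓝[>] (0 : ℝ)) (fun ε => truncH v a ε f x)

/-- The uniform weak-type `(2,2)` estimate of Stein's conjecture with truncation length `a₀`:
one constant `C` serves all unit vector fields with Lipschitz constant at most one. -/
def SteinEstimate (a₀ : ℝ) : Prop :=
  ∃ C : ℝ≥0, ∀ v : E2 → E2, (∀ x, ‖v x‖ = 1) → LipschitzWith 1 v →
    ∀ (f : 𝓢(E2, ℂ)) (l : ℝ), 0 < l →
      volume {x : E2 | l < ‖dirH v a₀ f x‖} ≤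
        C * ENNReal.ofReal (l ^ (-2 : ℤ)) * (eLpNorm f 2 volume) ^ 2

end Vale.Agent.Lib.P112
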