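import Vale.Agent.Lib.P112.Defs

namespace Vale.Agent.Lib.P112

open MeasureTheory Filter Topology SchwartzMap
open scoped ENNReal NNReal

/-- Radial normalisation does not increase distances outside the unit ball. -/
theorem norm_normalize_sub_le {y z : E2} (hy : 1 ≤ ‖y‖) (hz : 1 ≤ ‖z‖) :
    ‖‖y‖⁻¹ • y - ‖z‖⁻¹ • z‖ ≤ ‖y - z‖ := by
  have hy0 : 0 < ‖y‖ := by linarith
  have hz0 : 0 < ‖z‖ := by linarith
  refine le_of_sq_le_sq ?_ (norm_nonneg _)
  rw [norm_sub_sq_real, norm_sub_sq_real, norm_smul, norm_smul, real_inner_smul_left,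
    real_inner_smul_right, norm_inv, norm_norm, norm_inv, norm_norm,
    inv_mul_cancel₀ hy0.ne', inv_mul_cancel₀ hz0.ne']
  set a := ‖y‖
  set b := ‖z‖
  set c := inner ℝ y z
  have hc : c ≤ a * b := real_inner_le_norm y z
  have hab : 1 ≤ a * b := by nlinarith
  have h1 : a⁻¹ * (b⁻¹ * c) = c / (a * b) := by field_simp
  rw [h1]
  have h2 : c - c / (a * b) ≤ a * b - 1 := by
    have : c - c / (a * b) = c * (1 - 1 / (a * b)) := by field_simp
    rw [this]
    have h3 : 0 ≤ 1 - 1 / (a * b) := by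
      rw [sub_nonneg, div_le_one (by positivity)]; exact hab
    calc c * (1 - 1 / (a * b)) ≤ (a * b) * (1 - 1 / (a * b)) := by gcongr
      _ = a * b - 1 := by field_simp
  nlinarith [sq_nonneg (a - b)]

/-- The nearest-point projection onto the half-plane `{x | 1 ≤ x 0}`. -/
noncomputable def proj (x : E2) : E2 := !₂[max (x 0) 1, x 1]

theorem norm_sq_eq (x : E2) : ‖x‖ ^ 2 = x 0 ^ 2 + x 1 ^ 2 := by
  rw [EuclideanSpace.norm_eq, Real.sq_sqrt (by positivity)]
  simp [Fin.sum_univ_two]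

theorem one_le_norm_proj (x : E2) : 1 ≤ ‖proj x‖ := by
  have h := norm_sq_eq (proj x)
  have h0 : proj x 0 = max (x 0) 1 := by simp [proj]
  rw [h0] at h
  have h1 : (1 : ℝ) ≤ max (x 0) 1 := le_max_right _ _
  have h2 : (1 : ℝ) ≤ ‖proj x‖ ^ 2 := by
    rw [h]; nlinarith [sq_nonneg (proj x 1)]
  by_contra hlt
  push Not at hlt
  nlinarith [norm_nonneg (proj x)]

theorem norm_proj_sub_le (x y : E2) : ‖proj x - proj y‖ ≤ ‖x - y‖ := by
  refine le_of_sq_le_sq ?_ (norm_nonneg _)
  rw [norm_sq_eq, norm_sq_eq]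
  have h0 : (proj x - proj y) 0 = max (x 0) 1 - max (y 0) 1 := by simp [proj]
  have h1 : (proj x - proj y) 1 = x 1 - y 1 := by simp [proj]
  have h2 : (x - y) 0 = x 0 - y 0 := by simp
  have h3 : (x - y) 1 = x 1 - y 1 := by simp
  rw [h0, h1, h2, h3]
  have h4 := abs_max_sub_max_le_abs (x 0) (y 0) 1
  have h5 := sq_le_sq.2 h4
  linarith

theorem proj_eq_self {x : E2} (hx : 1 ≤ x 0) : proj x = x := by
  ext i
  fin_cases i
  · simp [proj, hx]
  · simp [proj]

/-- The focusing field: on the half-plane `{x | 1 ≤ x 0}` it is the radial field `x / ‖x‖`, and it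
is constant along horizontal lines to the left of that half-plane. -/
noncomputable def focus (x : E2) : E2 := ‖proj x‖⁻¹ • proj x

theorem norm_focus (x : E2) : ‖focus x‖ = 1 := by
  have h := one_le_norm_proj x
  unfold focus
  rw [norm_smul, norm_inv, norm_norm, inv_mul_cancel₀ (by linarith)]

theorem lipschitz_focus : LipschitzWith 1 focus := by
  refine LipschitzWith.of_dist_le_mul fun x y => ?_
  rw [dist_eq_norm, dist_eq_norm, NNReal.coe_one, one_mul]
  exact (norm_normalize_sub_le (one_le_norm_proj x) (one_le_norm_proj y)).trans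
    (norm_proj_sub_le x y)

theorem focus_eq {x : E2} (hx : 1 ≤ x 0) : focus x = ‖x‖⁻¹ • x := by
  unfold focus; rw [proj_eq_self hx]

/-- Along the focusing field every line passes through the origin. -/
theorem norm_sq_sub_smul_focus {x : E2} (hx : 1 ≤ x 0) (t : ℝ) :
    ‖x - t • focus x‖ ^ 2 = (‖x‖ - t) ^ 2 := by
  have hpos : 0 < ‖x‖ := by
    have := one_le_norm_proj x
    rw [proj_eq_self hx] at this
    linarith
  rw [focus_eq hx]
  have : x - t • ‖x‖⁻¹ • x = ((‖x‖ - t) / ‖x‖) • x := by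
    rw [smul_smul, sub_div, div_self hpos.ne', sub_smul, one_smul, div_eq_mul_inv]
  rw [this, norm_smul, mul_pow, Real.norm_eq_abs, sq_abs]
  field_simp

end Vale.Agent.Lib.P112
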