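import Vale.Agent.Lib.P112.Test

namespace Vale.Agent.Lib.P112

open MeasureTheory Filter Topology SchwartzMap
open scoped ENNReal NNReal

/-- One dyadic piece of the integrand along a line through the origin. -/
noncomputable def term (j : ℕ) (r t : ℝ) : ℝ := 2 ^ j * psi (4 ^ j * (r - t) ^ 2) / t

/-- The integrand along a line through the origin. -/
noncomputable def ker (N : ℕ) (r t : ℝ) : ℝ := G N ((r - t) ^ 2) / t

theorem ker_eq_sum (N : ℕ) (r t : ℝ) : ker N r t = ∑ j ∈ Finset.range N, term j r t := by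
  unfold ker term G
  rw [Finset.sum_div]

theorem ker_supp {N : ℕ} {r t : ℝ} (hr : 1 ≤ r) (h : ker N r t ≠ 0) : 1 / 2 < t := by
  have h1 : G N ((r - t) ^ 2) ≠ 0 := by
    intro h0; apply h; simp [ker, h0]
  by_contra hlt
  push Not at hlt
  exact h1 (G_eq_zero (by nlinarith))

theorem term_measurable (j : ℕ) (r : ℝ) : Measurable (term j r) := by
  unfold term
  have := psi.continuous.measurable
  fun_prop

theorem term_integrableOn (j : ℕ) (r a : ℝ) : IntegrableOn (term j r) (Set.Ioo (1 / 2) a) := by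
  refine Measure.integrableOn_of_bounded (M := 2 ^ j * 2) (by simp)
    (term_measurable j r).aestronglyMeasurable ?_
  refine (ae_restrict_iff' measurableSet_Ioo).2 (Eventually.of_forall fun t ht => ?_)
  have ht0 : (0 : ℝ) < t := by linarith [ht.1]
  unfold term
  rw [Real.norm_of_nonneg (div_nonneg (mul_nonneg (by positivity) psi.nonneg) ht0.le),
    div_le_iff₀ ht0]
  have h1 : (2 : ℝ) ^ j * psi (4 ^ j * (r - t) ^ 2) ≤ 2 ^ j :=
    mul_le_of_le_one_right (by positivity) psi.le_one
  have h2 : (0 : ℝ) < 2 ^ j := by positivity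
  nlinarith [ht.1]

theorem integral_term_ge (j : ℕ) {r a : ℝ} (hr : 1 ≤ r) (hra : r < a) :
    1 / (32 * a) ≤ ∫ t in Set.Ioo (1 / 2) a, term j r t := by
  have ha : 0 < a := by linarith
  have hu : (0 : ℝ) < 2 ^ j := by positivity
  have hu1 : (1 : ℝ) ≤ 2 ^ j := one_le_pow₀ (by norm_num)
  set u : ℝ := 2 ^ j with hudef
  set J : Set ℝ := Set.Icc (r - (13 / 32) / u) (r - (3 / 8) / u) with hJ
  have hdiv1 : (13 / 32) / u ≤ 13 / 32 := div_le_self (by norm_num) hu1
  have hdiv2 : 0 < (3 / 8) / u := by positivity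
  have hJsub : J ⊆ Set.Ioo (1 / 2) a := by
    intro t ht
    exact ⟨by linarith [ht.1], by linarith [ht.2]⟩
  have hJvol : volume.real J = (1 / 32) / u := by
    rw [hJ, Real.volume_real_Icc, max_eq_left]
    · field_simp; ring
    · have : (3 / 8) / u ≤ (13 / 32) / u :=
        div_le_div_of_nonneg_right (by norm_num) hu.le
      linarith
  have hlow : ∀ t ∈ J, u / a ≤ term j r t := by
    intro t ht
    have ht0 : 0 < t := by linarith [(hJsub ht).1]
    have hta : t < a := (hJsub ht).2
    have h4 : (4 : ℝ) ^ j = u ^ 2 := by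
      rw [hudef, ← pow_mul, mul_comm j 2, pow_mul]; norm_num
    have hs1 : 3 / 8 ≤ u * (r - t) := by
      have : (3 / 8) / u ≤ r - t := by linarith [ht.2]
      rw [div_le_iff₀ hu] at this
      linarith
    have hs2 : u * (r - t) ≤ 13 / 32 := by
      have : r - t ≤ (13 / 32) / u := by linarith [ht.1]
      rw [le_div_iff₀ hu] at this
      linarith
    have hpsi : psi (4 ^ j * (r - t) ^ 2) = 1 := by
      have : (4 : ℝ) ^ j * (r - t) ^ 2 = (u * (r - t)) ^ 2 := by rw [h4]; ring
      rw [this]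
      apply psi_eq_one <;> nlinarith
    unfold term
    rw [hpsi, mul_one]
    gcongr
  have hint := term_integrableOn j r a
  calc 1 / (32 * a) = u / a * volume.real J := by rw [hJvol]; field_simp
    _ ≤ ∫ t in J, term j r t :=
        setIntegral_ge_of_const_le_real measurableSet_Icc
          (by rw [hJ, Real.volume_Icc]; exact ENNReal.ofReal_ne_top) hlow (hint.mono_set hJsub)
    _ ≤ ∫ t in Set.Ioo (1 / 2) a, term j r t := by
        refine setIntegral_mono_set hint ?_ (Eventually.of_forall hJsub)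
        refine (ae_restrict_iff' measurableSet_Ioo).2 (Eventually.of_forall fun t ht => ?_)
        have ht0 : (0 : ℝ) < t := by linarith [ht.1]
        exact div_nonneg (mul_nonneg (by positivity) psi.nonneg) ht0.le

theorem integral_ker_ge (N : ℕ) {r a : ℝ} (hr : 1 ≤ r) (hra : r < a) :
    N / (32 * a) ≤ ∫ t in Set.Ioo (1 / 2) a, ker N r t := by
  simp_rw [ker_eq_sum]
  rw [integral_finsetSum _ fun j _ => term_integrableOn j r a]
  calc (N : ℝ) / (32 * a) = ∑ j ∈ Finset.range N, 1 / (32 * a) := by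
        rw [Finset.sum_const, Finset.card_range, nsmul_eq_mul]; ring
    _ ≤ _ := Finset.sum_le_sum fun j _ => integral_term_ge j hr hra

theorem one_le_norm {x : E2} (hx : 1 ≤ x 0) : 1 ≤ ‖x‖ := by
  have := one_le_norm_proj x
  rwa [proj_eq_self hx] at this

theorem truncH_testFun (N : ℕ) {x : E2} (hx : 1 ≤ x 0) {a ε : ℝ} (hε : ε ≤ 1 / 2) :
    truncH focus a ε (testFun N) x = ((∫ t in Set.Ioo (1 / 2) a, ker N ‖x‖ t : ℝ) : ℂ) := by
  unfold truncH
  have e1 : ∀ t : ℝ, testFun N (x - t • focus x) / (t : ℂ) = ((ker N ‖x‖ t : ℝ) : ℂ) := by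
    intro t
    rw [testFun_apply, norm_sq_sub_smul_focus hx, ker]
    push_cast
    ring
  simp_rw [e1]
  have hmeas : MeasurableSet {t : ℝ | ε < |t| ∧ |t| < a} :=
    (measurableSet_lt measurable_const measurable_id.abs).inter
      (measurableSet_lt measurable_id.abs measurable_const)
  rw [setIntegral_eq_of_subset_of_forall_sdiff_eq_zero (s := Set.Ioo (1 / 2) a) hmeas]
  · exact integral_complex_ofReal
  · intro t ht
    have ht0 : (0 : ℝ) < t := by linarith [ht.1]
    show ε < |t| ∧ |t| < a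
    rw [abs_of_pos ht0]
    exact ⟨by linarith [ht.1], ht.2⟩
  · intro t ht
    by_contra hne
    have hne' : ker N ‖x‖ t ≠ 0 := by
      intro h0; apply hne; simp [h0]
    have h1 := ker_supp (one_le_norm hx) hne'
    apply ht.2
    have h2 : |t| < a := ht.1.2
    rw [abs_of_pos (by linarith)] at h2
    exact ⟨h1, h2⟩

theorem dirH_testFun (N : ℕ) {x : E2} (hx : 1 ≤ x 0) (a : ℝ) :
    dirH focus a (testFun N) x = ((∫ t in Set.Ioo (1 / 2) a, ker N ‖x‖ t : ℝ) : ℂ) := by
  unfold dirH
  apply Tendsto.limUnder_eq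
  apply tendsto_const_nhds.congr'
  have h1 : Set.Ioo (0 : ℝ) (1 / 2) ∈ 𝓝[>] (0 : ℝ) := Ioo_mem_nhdsGT (by norm_num)
  filter_upwards [h1] with ε hε
  exact (truncH_testFun N hx hε.2.le).symm

/-- On the part of the half-plane within distance `a` of the origin the transform of the `N`-th
test function is at least `N / (32 a)`. -/
theorem norm_dirH_testFun_ge (N : ℕ) {x : E2} (hx : 1 ≤ x 0) {a : ℝ} (hxa : ‖x‖ < a) :
    N / (32 * a) ≤ ‖dirH focus a (testFun N) x‖ := by
  rw [dirH_testFun N hx, Complex.norm_real]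
  exact (integral_ker_ge N (one_le_norm hx) hxa).trans (le_abs_self _)

end Vale.Agent.Lib.P112
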