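import Vale.Agent.Lib.P112.Field

namespace Vale.Agent.Lib.P112

open MeasureTheory Filter Topology SchwartzMap
open scoped ENNReal NNReal

theorem eLpNorm_two_sq (f : E2 → ℂ) : (eLpNorm f 2 volume) ^ 2 = ∫⁻ x, ‖f x‖ₑ ^ 2 := by
  have h := eLpNorm_nnreal_pow_eq_lintegral (μ := (volume : Measure E2)) (f := f) (p := 2)
    (by norm_num)
  simpa using h

/-- A fixed bump on the line: equal to `1` on `[1/8, 3/16]`, supported in `(1/16, 1/4)`. -/
noncomputable def psi : ContDiffBump (5 / 32 : ℝ) := ⟨1 / 32, 3 / 32, by norm_num, by norm_num⟩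

theorem psi_eq_zero {z : ℝ} (hz : z ≤ 1 / 16 ∨ 1 / 4 ≤ z) : psi z = 0 := by
  apply psi.zero_of_le_dist
  rw [Real.dist_eq]
  show 3 / 32 ≤ |z - 5 / 32|
  rcases hz with h | h
  · rw [abs_of_nonpos (by linarith)]; linarith
  · rw [abs_of_nonneg (by linarith)]; linarith

theorem psi_eq_one {z : ℝ} (h1 : 1 / 8 ≤ z) (h2 : z ≤ 3 / 16) : psi z = 1 := by
  apply psi.one_of_mem_closedBall
  rw [Metric.mem_closedBall, Real.dist_eq]
  show |z - 5 / 32| ≤ 1 / 32
  rw [abs_le]; constructor <;> linarith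

/-- The radial profile (as a function of the squared radius): a sum of `N` dyadic bumps, the
`j`-th one of height `2 ^ j` and living at radius about `2 ^ (-j)`. -/
noncomputable def G (N : ℕ) (q : ℝ) : ℝ := ∑ j ∈ Finset.range N, 2 ^ j * psi (4 ^ j * q)

theorem G_nonneg (N : ℕ) (q : ℝ) : 0 ≤ G N q :=
  Finset.sum_nonneg fun _ _ => mul_nonneg (by positivity) psi.nonneg

theorem exists_of_G_ne_zero {N : ℕ} {q : ℝ} (h : G N q ≠ 0) :
    ∃ j ∈ Finset.range N, 1 / 16 < 4 ^ j * q ∧ 4 ^ j * q < 1 / 4 := by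
  by_contra hcon
  push Not at hcon
  apply h
  refine Finset.sum_eq_zero fun j hj => ?_
  rw [psi_eq_zero, mul_zero]
  by_cases h1 : 1 / 16 < 4 ^ j * q
  · exact Or.inr (hcon j hj h1)
  · exact Or.inl (not_lt.1 h1)

theorem G_eq_single {N : ℕ} {q : ℝ} {j : ℕ} (hj : j ∈ Finset.range N)
    (h1 : 1 / 16 < 4 ^ j * q) (h2 : 4 ^ j * q < 1 / 4) : G N q = 2 ^ j * psi (4 ^ j * q) := by
  have hq : 0 < q := by
    by_contra hq
    push Not at hq
    have : (4 : ℝ) ^ j * q ≤ 0 := mul_nonpos_of_nonneg_of_nonpos (by positivity) hq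
    linarith
  refine Finset.sum_eq_single j ?_ (fun h => absurd hj h)
  intro k _ hne
  rw [psi_eq_zero, mul_zero]
  rcases lt_or_gt_of_ne hne with hlt | hgt
  · left
    obtain ⟨d, rfl⟩ := Nat.exists_eq_add_of_lt hlt
    have : (4 : ℝ) ^ (k + d + 1) * q = 4 ^ d * 4 * (4 ^ k * q) := by ring
    rw [this] at h2
    have hd : (1 : ℝ) ≤ 4 ^ d := one_le_pow₀ (by norm_num)
    have hk : 0 < (4 : ℝ) ^ k * q := by positivity
    nlinarith
  · right
    obtain ⟨d, rfl⟩ := Nat.exists_eq_add_of_lt hgt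
    have : (4 : ℝ) ^ (j + d + 1) * q = 4 ^ d * 4 * (4 ^ j * q) := by ring
    rw [this]
    have hd : (1 : ℝ) ≤ 4 ^ d := one_le_pow₀ (by norm_num)
    nlinarith

theorem G_eq_zero {N : ℕ} {q : ℝ} (hq : 1 / 4 ≤ q) : G N q = 0 := by
  by_contra h
  obtain ⟨j, _, _, h2⟩ := exists_of_G_ne_zero h
  have hd : (1 : ℝ) ≤ 4 ^ j := one_le_pow₀ (by norm_num)
  nlinarith

theorem G_continuous (N : ℕ) : Continuous (G N) := by
  unfold G
  exact continuous_finsetSum _ fun j _ => continuous_const.mul (psi.continuous.comp (by fun_prop))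

theorem G_contDiff (N : ℕ) :
    ContDiff ℝ ((⊤ : ℕ∞) : WithTop ℕ∞) (fun y : E2 => ((G N (‖y‖ ^ 2) : ℝ) : ℂ)) := by
  have h1 : ContDiff ℝ ((⊤ : ℕ∞) : WithTop ℕ∞) (fun y : E2 => G N (‖y‖ ^ 2)) := by
    unfold G
    exact ContDiff.sum fun j _ => contDiff_const.mul
      (psi.contDiff.comp (contDiff_const.mul (contDiff_norm_sq ℝ)))
  exact Complex.ofRealCLM.contDiff.comp h1

theorem G_hasCompactSupport (N : ℕ) :
    HasCompactSupport (fun y : E2 => ((G N (‖y‖ ^ 2) : ℝ) : ℂ)) := by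
  refine HasCompactSupport.of_support_subset_isCompact (isCompact_closedBall (0 : E2) 1) ?_
  intro y hy
  have hy' : G N (‖y‖ ^ 2) ≠ 0 := by
    intro h
    apply hy
    simp [h]
  rw [mem_closedBall_zero_iff]
  by_contra hlt
  push Not at hlt
  exact hy' (G_eq_zero (by nlinarith))

/-- The radial Schwartz test function `y ↦ ∑_{j < N} 2 ^ j ψ(4 ^ j ‖y‖ ^ 2)`. -/
noncomputable def testFun (N : ℕ) : 𝓢(E2, ℂ) :=
  (G_hasCompactSupport N).toSchwartzMap (G_contDiff N)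

@[simp] theorem testFun_apply (N : ℕ) (y : E2) : testFun N y = ((G N (‖y‖ ^ 2) : ℝ) : ℂ) := rfl

theorem enorm_testFun_sq_le (N : ℕ) (y : E2) :
    ‖testFun N y‖ₑ ^ 2 ≤
      ∑ j ∈ Finset.range N, (Metric.ball (0 : E2) ((2 ^ j)⁻¹)).indicator
        (fun _ => (4 : ℝ≥0∞) ^ j) y := by
  by_cases h : G N (‖y‖ ^ 2) = 0
  · simp [h]
  obtain ⟨j, hj, h1, h2⟩ := exists_of_G_ne_zero h
  have hy : y ∈ Metric.ball (0 : E2) ((2 ^ j)⁻¹) := by
    rw [mem_ball_zero_iff]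
    have h3 : (2 ^ j * ‖y‖) ^ 2 < 1 := by
      have : ((2 : ℝ) ^ j * ‖y‖) ^ 2 = 4 ^ j * ‖y‖ ^ 2 := by
        rw [mul_pow, ← pow_mul, mul_comm j 2, pow_mul]; norm_num
      rw [this]; linarith
    have h4 : 2 ^ j * ‖y‖ < 1 := by
      by_contra hge
      push Not at hge
      nlinarith
    rw [← one_div, lt_div_iff₀ (by positivity)]
    linarith
  have hle : ‖testFun N y‖ₑ ^ 2 ≤ (4 : ℝ≥0∞) ^ j := by
    rw [testFun_apply, G_eq_single hj h1 h2, ← ofReal_norm, Complex.norm_real,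
      Real.norm_of_nonneg (mul_nonneg (by positivity) psi.nonneg)]
    have h5 : (2 : ℝ) ^ j * psi (4 ^ j * ‖y‖ ^ 2) ≤ 2 ^ j :=
      mul_le_of_le_one_right (by positivity) psi.le_one
    calc ENNReal.ofReal ((2 : ℝ) ^ j * psi (4 ^ j * ‖y‖ ^ 2)) ^ 2
        ≤ ENNReal.ofReal ((2 : ℝ) ^ j) ^ 2 := by gcongr
      _ = (4 : ℝ≥0∞) ^ j := by
        rw [ENNReal.ofReal_pow (by norm_num), ← pow_mul, mul_comm j 2, pow_mul]
        norm_num
  refine hle.trans ?_
  have := Finset.single_le_sum (f := fun j => (Metric.ball (0 : E2) ((2 ^ j)⁻¹)).indicator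
        (fun _ => (4 : ℝ≥0∞) ^ j) y) (fun _ _ => zero_le) hj
  simpa [Set.indicator_of_mem hy] using this

theorem eLpNorm_testFun_sq_le (N : ℕ) :
    (eLpNorm (testFun N) 2 volume) ^ 2 ≤ N * volume (Metric.ball (0 : E2) 1) := by
  rw [eLpNorm_two_sq]
  calc ∫⁻ y, ‖testFun N y‖ₑ ^ 2
      ≤ ∫⁻ y, ∑ j ∈ Finset.range N, (Metric.ball (0 : E2) ((2 ^ j)⁻¹)).indicator
        (fun _ => (4 : ℝ≥0∞) ^ j) y := lintegral_mono (enorm_testFun_sq_le N)
    _ = ∑ j ∈ Finset.range N, ∫⁻ y, (Metric.ball (0 : E2) ((2 ^ j)⁻¹)).indicator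
        (fun _ => (4 : ℝ≥0∞) ^ j) y :=
        lintegral_finsetSum _ fun j _ => measurable_const.indicator measurableSet_ball
    _ = ∑ j ∈ Finset.range N, volume (Metric.ball (0 : E2) 1) := by
        refine Finset.sum_congr rfl fun j _ => ?_
        rw [lintegral_indicator_const measurableSet_ball,
          Measure.addHaar_ball volume (0 : E2) (by positivity), finrank_euclideanSpace_fin,
          ← mul_assoc]
        have : (4 : ℝ≥0∞) ^ j * ENNReal.ofReal (((2 : ℝ) ^ j)⁻¹ ^ 2) = 1 := by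
          have h4 : (4 : ℝ≥0∞) ^ j = ENNReal.ofReal ((4 : ℝ) ^ j) := by
            rw [ENNReal.ofReal_pow (by norm_num)]; norm_num
          rw [h4, ← ENNReal.ofReal_mul (by positivity)]
          have : (4 : ℝ) ^ j * ((2 : ℝ) ^ j)⁻¹ ^ 2 = 1 := by
            have : (4 : ℝ) ^ j = (2 ^ j) ^ 2 := by
              rw [← pow_mul, mul_comm j 2, pow_mul]; norm_num
            rw [this]; field_simp
          rw [this, ENNReal.ofReal_one]
        rw [this, one_mul]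
    _ = N * volume (Metric.ball (0 : E2) 1) := by simp

end Vale.Agent.Lib.P112
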